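import Vale.Agent.P254.H721.SPFun

/-!
P254, (SP_0) line, block SP-1C (helper533): kernels `|f'| ≤ k mm`, `mm = L - g`, from the planar
autonomous system of the half line Gaussian.
-/

namespace Vale.Agent.P254.S3

open Real Set Filter Topology MeasureTheory
open Vale.Agent.P254.H876 (ph Ph lam m v)
open Vale.Agent.P254.H721

/-- barrier lemma: if `f → l ≥ 0` at `-∞` and `f' ≥ 0` wherever `f < 0`, then `f ≥ 0` -/
theorem barrier_bot {f f' : ℝ → ℝ} (h : ∀ x, HasDerivAt f (f' x) x)
    (hp : ∀ x, f x < 0 → 0 ≤ f' x) {l : ℝ} (hl : 0 ≤ l) (h0 : Tendsto f atBot (𝓝 l)) (c : ℝ) :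
    0 ≤ f c := by
  by_contra hneg
  push Not at hneg
  have hcont : Continuous f := continuous_iff_continuousAt.2 fun x => (h x).continuousAt
  -- all points to the left are below f c
  have key : ∀ x ≤ c, f x ≤ f c := by
    intro x hx
    by_contra hgt
    push Not at hgt
    set T : Set ℝ := {y | y ∈ Icc x c ∧ f c < f y} with hT
    have hxT : x ∈ T := ⟨⟨le_rfl, hx⟩, hgt⟩
    -- s = sup T
    have hbdd : BddAbove T := ⟨c, fun y hy => hy.1.2⟩
    set s := sSup T with hs
    have hsx : x ≤ s := le_csSup hbdd hxT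
    have hsc : s ≤ c := csSup_le ⟨x, hxT⟩ fun y hy => hy.1.2
    -- on (s, c], f ≤ f c < 0
    have h1 : ∀ z, s < z → z ≤ c → f z ≤ f c := by
      intro z hz hzc
      by_contra hcon
      push Not at hcon
      have : z ∈ T := ⟨⟨by linarith, hzc⟩, hcon⟩
      have := le_csSup hbdd this
      linarith
    -- f s = f c by continuity
    have h2 : f c ≤ f s := by
      have hcl : s ∈ closure T := csSup_mem_closure ⟨x, hxT⟩ hbdd
      have : T ⊆ {y | f c ≤ f y} := fun y hy => hy.2.le
      exact (isClosed_le continuous_const hcont).closure_subset_iff.2 this hcl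
    have h3 : f s ≤ f c := by
      rcases eq_or_lt_of_le hsc with h | h
      · rw [h]
      · have hcl : s ∈ closure (Ioc s c) := by
          rw [closure_Ioc h.ne]; exact ⟨le_rfl, hsc⟩
        have : Ioc s c ⊆ {y | f y ≤ f c} := fun y hy => h1 y hy.1 hy.2
        exact (isClosed_le hcont continuous_const).closure_subset_iff.2 this hcl
    have hfs : f s = f c := le_antisymm h3 h2
    -- near s on the left, f < 0 so f is nondecreasing, so f ≤ f s = f c there: contradiction
    have hneg_s : f s < 0 := by rw [hfs]; exact hneg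
    obtain ⟨ε, hε, hball⟩ := Metric.continuousAt_iff.1 (hcont.continuousAt (x := s)) (-f s)
      (by linarith)
    have hx_lt_s : x < s := by
      rcases eq_or_lt_of_le hsx with h | h
      · rw [← h] at hfs; rw [hfs] at hgt; exact absurd hgt (lt_irrefl _)
      · exact h
    obtain ⟨y, hyT, hy⟩ := exists_lt_of_lt_csSup ⟨x, hxT⟩ (show max x (s - ε / 2) < sSup T from by
      rw [← hs]; exact max_lt hx_lt_s (by linarith))
    have hys : y ≤ s := le_csSup hbdd hyT
    have hyx : s - ε / 2 < y := lt_of_le_of_lt (le_max_right _ _) hy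
    have hmono : MonotoneOn f (Icc y s) := by
      apply monotoneOn_of_deriv_nonneg (convex_Icc y s) hcont.continuousOn
      · exact fun z _ => (h z).differentiableAt.differentiableWithinAt
      · intro z hz
        rw [interior_Icc] at hz
        rw [(h z).deriv]
        apply hp
        have := hball (x := z) (by
          rw [Real.dist_eq, abs_lt]
          constructor <;> linarith [hz.1, hz.2])
        rw [Real.dist_eq, abs_lt] at this
        linarith [this.2]
    have := hmono (left_mem_Icc.2 hys) (right_mem_Icc.2 hys) hys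
    have := hyT.2
    linarith
  have h4 : l ≤ f c := by
    refine le_of_tendsto h0 ?_
    filter_upwards [eventually_le_atBot c] with x hx
    exact key x hx
  linarith

/-- polynomial fact behind `D_le` -/
theorem alg_D {v q : ℝ} (hv : 0 < v) (hv1 : v < 1) (hq : 0 < q)
    (h : 5 * (q + 2 * v) ^ 2 < 54 * (2 * v ^ 2 - q + q * v)) :
    q * (39 - 59 * v) ≤ 10 * v * (1 + v) := by
  by_contra hcon
  push Not at hcon
  have hc : 0 < 39 - 59 * v := by
    by_contra h0
    push Not at h0
    nlinarith [mul_nonneg hq.le (neg_nonneg.2 h0), mul_pos hv hv]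
  -- cubic positivity
  have cub : 0 ≤ 5 * v * (88 - 108 * v) ^ 2 + 540 * (1 - v ^ 2) * (39 - 59 * v)
      - 108 * v * (39 - 59 * v) ^ 2 := by
    nlinarith [mul_pos hv hc, sq_nonneg (v - 33 / 100), mul_nonneg hv.le (sq_nonneg (v - 33 / 100)),
      mul_nonneg hc.le (sq_nonneg (v - 33 / 100))]
  have h1 : 5 * (q + 2 * v) ^ 2 * (39 - 59 * v) ^ 2
      < 54 * (2 * v ^ 2 - q + q * v) * (39 - 59 * v) ^ 2 := by
    have : 0 < (39 - 59 * v) ^ 2 := by positivity
    nlinarith
  have h2 : v * (88 - 108 * v) < (q + 2 * v) * (39 - 59 * v) := by nlinarith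
  have h3 : 0 < v * (88 - 108 * v) := by nlinarith
  have h4 : (v * (88 - 108 * v)) ^ 2 < ((q + 2 * v) * (39 - 59 * v)) ^ 2 := by
    apply pow_lt_pow_left₀ h2 h3.le (by norm_num)
  have h5 : (1 - v) * (39 - 59 * v) * (10 * v * (1 + v)) ≤
      (1 - v) * (39 - 59 * v) * (q * (39 - 59 * v)) := by
    apply mul_le_mul_of_nonneg_left hcon.le
    exact mul_nonneg (by linarith) hc.le
  have h6 := mul_nonneg hv.le cub
  nlinarith

/-- `D = v (1 + v + m²) - m²` satisfies `54 D ≤ 5 (v + m²)²` -/
theorem D_le (c : ℝ) : 0 ≤ 5 * (v c + m c ^ 2) ^ 2 - 54 * (v c * (1 + v c + m c ^ 2) - m c ^ 2) := by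
  have hd : ∀ x, HasDerivAt (fun x => (5 * (v x + m x ^ 2) ^ 2
      - 54 * (v x * (1 + v x + m x ^ 2) - m x ^ 2)) * Ph x)
      (Ph x * ((v x + m x ^ 2) * (10 * v x * (1 + v x) - (m x ^ 2 - v x) * (39 - 59 * v x)) / m x))
      x := by
    intro x
    have hv := H876.hasDerivAt_v x
    have hm := H876.hasDerivAt_m x
    have hP := H876.hasDerivAt_Ph x
    have hm2 : HasDerivAt (fun y => m y ^ 2) (2 * m x * v x) x := by
      have := hm.fun_pow 2
      simpa using this
    have hz : HasDerivAt (fun y => v y + m y ^ 2) (lam x * (m x ^ 2 - v x) + 2 * m x * v x) x :=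
      hv.add hm2
    have hz2 : HasDerivAt (fun y => (v y + m y ^ 2) ^ 2)
        (2 * (v x + m x ^ 2) * (lam x * (m x ^ 2 - v x) + 2 * m x * v x)) x := by
      have := hz.fun_pow 2
      simpa using this
    have hD : HasDerivAt (fun y => v y * (1 + v y + m y ^ 2) - m y ^ 2)
        (lam x * (m x ^ 2 - v x) * (1 + v x + m x ^ 2) +
          v x * (lam x * (m x ^ 2 - v x) + 2 * m x * v x) - 2 * m x * v x) x := by
      have h1 : HasDerivAt (fun y => 1 + v y + m y ^ 2)
          (lam x * (m x ^ 2 - v x) + 2 * m x * v x) x := by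
        have := hz.const_add 1
        refine this.congr_of_eventuallyEq (Eventually.of_forall fun y => ?_)
        simp only
        ring
      exact (hv.mul h1).sub hm2
    have h := ((hz2.const_mul 5).sub (hD.const_mul 54)).mul hP
    refine h.congr_deriv ?_
    have hlm : lam x * m x = 1 - v x := by
      have : v x = 1 - lam x * m x := rfl
      linarith
    have hm0 := (H876.m_pos x).ne'
    rw [← H876.lam_mul_Ph x]
    have hl : lam x = (1 - v x) / m x := by
      rw [eq_div_iff hm0]; exact hlm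
    rw [hl]
    simp only [Pi.sub_apply]
    field_simp
    ring
  have h0 : Tendsto (fun x => (5 * (v x + m x ^ 2) ^ 2
      - 54 * (v x * (1 + v x + m x ^ 2) - m x ^ 2)) * Ph x) atBot (𝓝 0) := by
    refine H876.tendsto_bdd_mul_Ph (C := 240) fun c hc => ?_
    have h1 := H876.m_lt_one hc
    have h2 := H876.m_pos c
    have h3 := H876.v_pos c
    have h4 := H876.v_lt_one c
    have h5 : m c ^ 2 ≤ 1 := by nlinarith
    have h6 : 0 < m c ^ 2 := by positivity
    have h7 : (v c + m c ^ 2) ^ 2 ≤ 4 := by nlinarith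
    have h8 : 0 ≤ (v c + m c ^ 2) ^ 2 := sq_nonneg _
    have h9 : v c * (1 + v c + m c ^ 2) ≤ 3 := by nlinarith
    have h10 : 0 ≤ v c * (1 + v c + m c ^ 2) := by positivity
    rw [abs_le]
    constructor <;> linarith
  have hb := barrier_bot hd (fun x hx => by
    have hP := H876.Ph_pos x
    have h1 : 5 * (v x + m x ^ 2) ^ 2 - 54 * (v x * (1 + v x + m x ^ 2) - m x ^ 2) < 0 := by
      by_contra hcon
      push Not at hcon
      have := mul_nonneg hcon hP.le
      linarith
    have hv := H876.v_pos x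
    have hv1 := H876.v_lt_one x
    have hq := H876.qv_pos x
    have hm := H876.m_pos x
    have h2 := alg_D hv hv1 hq (by nlinarith)
    have h3 : 0 ≤ 10 * v x * (1 + v x) - (m x ^ 2 - v x) * (39 - 59 * v x) := by linarith
    have h4 : 0 ≤ v x + m x ^ 2 := by positivity
    positivity) le_rfl h0 c
  by_contra hcon
  push Not at hcon
  have := mul_neg_of_neg_of_pos hcon (H876.Ph_pos c)
  linarith

theorem D_le' (g : ℝ) :
    0 ≤ 5 * (vv g + mm g ^ 2) ^ 2 - 54 * (vv g * (1 + vv g + mm g ^ 2) - mm g ^ 2) := D_le (-g)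

/-- upper bound for `t` -/
theorem t_le' (g : ℝ) : t g ≤ 54 / 49 * (L g * (mm g / (vv g + mm g ^ 2))) := by
  have h : ∀ x, HasDerivAt (fun x => 54 / 49 * (L x * (mm x / (vv x + mm x ^ 2))) - t x)
      (L x * (5 * (vv x + mm x ^ 2) ^ 2 - 54 * (vv x * (1 + vv x + mm x ^ 2) - mm x ^ 2))
        / (49 * (vv x + mm x ^ 2) ^ 2)) x := by
    intro x
    have hv := vv_pos x
    have hd : vv x + mm x ^ 2 ≠ 0 := by positivity
    have h2 : HasDerivAt (fun x => mm x / (vv x + mm x ^ 2))
        ((-vv x * (vv x + mm x ^ 2) - mm x *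
          (-(L x * (mm x ^ 2 - vv x)) + 2 * mm x * (-vv x))) / (vv x + mm x ^ 2) ^ 2) x := by
      have h3 := (hasDerivAt_mm x).div ((hasDerivAt_vv x).add ((hasDerivAt_mm x).pow 2)) hd
      refine h3.congr_deriv ?_
      simp only [Pi.add_apply, Pi.pow_apply]
      push_cast
      ring
    have h1 := (((hasDerivAt_L x).mul h2).const_mul (54 / 49 : ℝ)).sub (hasDerivAt_t x)
    refine h1.congr_deriv ?_
    have hLm := L_mul_mm x
    field_simp
    linear_combination (54 * (mm x ^ 2 - vv x) * L x) * hLm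
  have h0 : Tendsto (fun x => 54 / 49 * (L x * (mm x / (vv x + mm x ^ 2))) - t x) atBot (𝓝 0) := by
    have h1 : Tendsto (fun x => L x * (mm x / (vv x + mm x ^ 2))) atBot (𝓝 0) := by
      refine tendsto_L_mul (C := 1) fun g hg => ?_
      have h3 := one_le_mm hg
      have hv := vv_pos g
      rw [abs_of_pos (by positivity), div_le_one (by positivity)]
      nlinarith
    have := (h1.const_mul (54 / 49 : ℝ)).sub tendsto_t_bot
    simpa using this
  have := H876.nonneg_of_deriv_nonneg (c := g) (fun x _ => h x) (fun x _ => by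
    have h1 := L_pos x
    have h3 := D_le' x
    positivity) h0
  linarith

/-- **C1**: `r'' ≤ (5/49) (L - g)` -/
theorem r2_le (g : ℝ) : r2 g ≤ 5 / 49 * mm g := by
  rw [r2_eq]
  have h := t_le' g
  have hL := L_pos g
  have hv := vv_pos g
  have hm := mm_pos g
  have hd : 0 < vv g + mm g ^ 2 := by positivity
  have h2 : r g ≤ 54 / 49 * (mm g / (vv g + mm g ^ 2)) := by
    unfold r
    rw [div_le_iff₀ hL]
    linarith
  have h3 : r g * (vv g + mm g ^ 2) ≤ 54 / 49 * (mm g / (vv g + mm g ^ 2)) * (vv g + mm g ^ 2) :=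
    mul_le_mul_of_nonneg_right h2 hd.le
  have h4 : 54 / 49 * (mm g / (vv g + mm g ^ 2)) * (vv g + mm g ^ 2) = 54 / 49 * mm g := by
    field_simp
  linarith

end Vale.Agent.P254.S3
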