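import Mathlib

/-!
P254, (SP_0) line, block SP-1C (helper533): one-variable polynomial positivity (Bernstein form) used
for `|r'''| ≤ nu / 20`.
-/

set_option linter.all false

namespace Vale.Agent.P254.S3

theorem c3_nn {z : ℝ} (h0 : 0 ≤ z) (h1 : z ≤ 1) :
    0 ≤ 45 + (78/5) * z + (-139) * z ^ 2 + (798/5) * z ^ 3 + (-395) * z ^ 4 + (696/5) * z ^ 5 + 597 * z ^ 6 := by
  have e : 45 + (78/5) * z + (-139) * z ^ 2 + (798/5) * z ^ 3 + (-395) * z ^ 4 + (696/5) * z ^ 5 + 597 * z ^ 6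
      = 45 * ((z - 0) ^ 0 * (1 - z) ^ 9)
        + 2103/5 * ((z - 0) ^ 1 * (1 - z) ^ 8)
        + 8029/5 * ((z - 0) ^ 2 * (1 - z) ^ 7)
        + 17017/5 * ((z - 0) ^ 3 * (1 - z) ^ 6)
        + 20936/5 * ((z - 0) ^ 4 * (1 - z) ^ 5)
        + 12276/5 * ((z - 0) ^ 5 * (1 - z) ^ 4)
        + 922/5 * ((z - 0) ^ 6 * (1 - z) ^ 3)
        + 208 * ((z - 0) ^ 7 * (1 - z) ^ 2)
        + 4436/5 * ((z - 0) ^ 8 * (1 - z) ^ 1)
        + 2112/5 * ((z - 0) ^ 9 * (1 - z) ^ 0) := by ring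
  have hw : 0 ≤ z - 0 := by linarith
  have hu : 0 ≤ 1 - z := by linarith
  rw [e]
  positivity

theorem c4_nn {z : ℝ} (h0 : 0 ≤ z) (h1 : z ≤ 1) :
    0 ≤ 18 * z ^ 2 + (126/5) * z ^ 3 + 30 * z ^ 4 + (162/5) * z ^ 5 + (-48) * z ^ 6 := by
  have e : 18 * z ^ 2 + (126/5) * z ^ 3 + 30 * z ^ 4 + (162/5) * z ^ 5 + (-48) * z ^ 6
      = 18 * ((z - 0) ^ 2 * (1 - z) ^ 4)
        + 486/5 * ((z - 0) ^ 3 * (1 - z) ^ 3)
        + 1068/5 * ((z - 0) ^ 4 * (1 - z) ^ 2)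
        + 240 * ((z - 0) ^ 5 * (1 - z) ^ 1)
        + 288/5 * ((z - 0) ^ 6 * (1 - z) ^ 0) := by ring
  have hw : 0 ≤ z - 0 := by linarith
  have hu : 0 ≤ 1 - z := by linarith
  rw [e]
  positivity

theorem c5_nn {z : ℝ} (h0 : 0 ≤ z) (h1 : z ≤ 1) :
    0 ≤ 27 * z ^ 4 + (12/5) * z ^ 5 + (-27) * z ^ 6 := by
  have e : 27 * z ^ 4 + (12/5) * z ^ 5 + (-27) * z ^ 6
      = 27 * ((z - 0) ^ 4 * (1 - z) ^ 2)
        + 282/5 * ((z - 0) ^ 5 * (1 - z) ^ 1)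
        + 12/5 * ((z - 0) ^ 6 * (1 - z) ^ 0) := by ring
  have hw : 0 ≤ z - 0 := by linarith
  have hu : 0 ≤ 1 - z := by linarith
  rw [e]
  positivity

theorem c0_nn {z : ℝ} (h0 : 0 ≤ z) (h1 : z ≤ 1) :
    0 ≤ 84 * z ^ 3 + (-250) * z ^ 4 + 72 * z ^ 5 + 1000 * z ^ 6 := by
  have e : 84 * z ^ 3 + (-250) * z ^ 4 + 72 * z ^ 5 + 1000 * z ^ 6
      = 84 * ((z - 0) ^ 3 * (1 - z) ^ 6)
        + 254 * ((z - 0) ^ 4 * (1 - z) ^ 5)
        + 82 * ((z - 0) ^ 5 * (1 - z) ^ 4)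
        + 468 * ((z - 0) ^ 6 * (1 - z) ^ 3)
        + 2192 * ((z - 0) ^ 7 * (1 - z) ^ 2)
        + 2542 * ((z - 0) ^ 8 * (1 - z) ^ 1)
        + 906 * ((z - 0) ^ 9 * (1 - z) ^ 0) := by ring
  have hw : 0 ≤ z - 0 := by linarith
  have hu : 0 ≤ 1 - z := by linarith
  rw [e]
  positivity

theorem c1_nnA {z : ℝ} (h0 : 0 ≤ z) (h1 : z ≤ 1/10) :
    0 ≤ 12 * z + (-125) * z ^ 2 + (1404/5) * z ^ 3 + (-1415) * z ^ 4 + (1128/5) * z ^ 5 + 2860 * z ^ 6 := by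
  have e : 12 * z + (-125) * z ^ 2 + (1404/5) * z ^ 3 + (-1415) * z ^ 4 + (1128/5) * z ^ 5 + 2860 * z ^ 6
      = 1200000 * ((z - 0) ^ 1 * (1/10 - z) ^ 5)
        + 4750000 * ((z - 0) ^ 2 * (1/10 - z) ^ 4)
        + 7280800 * ((z - 0) ^ 3 * (1/10 - z) ^ 3)
        + 5200900 * ((z - 0) ^ 4 * (1/10 - z) ^ 2)
        + 1561656 * ((z - 0) ^ 5 * (1/10 - z) ^ 1)
        + 94416 * ((z - 0) ^ 6 * (1/10 - z) ^ 0) := by ring
  have hw : 0 ≤ z - 0 := by linarith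
  have hu : 0 ≤ 1/10 - z := by linarith
  rw [e]
  positivity

theorem c2_nnA {z : ℝ} (h0 : 0 ≤ z) (h1 : z ≤ 1/10) :
    0 ≤ 125 + (138/5) * z + (-570) * z ^ 2 + (1656/5) * z ^ 3 + (-1227) * z ^ 4 + (1314/5) * z ^ 5 + 2350 * z ^ 6 := by
  have e : 125 + (138/5) * z + (-570) * z ^ 2 + (1656/5) * z ^ 3 + (-1227) * z ^ 4 + (1314/5) * z ^ 5 + 2350 * z ^ 6
      = 125000000 * ((z - 0) ^ 0 * (1/10 - z) ^ 6)
        + 752760000 * ((z - 0) ^ 1 * (1/10 - z) ^ 5)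
        + 1883100000 * ((z - 0) ^ 2 * (1/10 - z) ^ 4)
        + 2505131200 * ((z - 0) ^ 3 * (1/10 - z) ^ 3)
        + 1869270900 * ((z - 0) ^ 4 * (1/10 - z) ^ 2)
        + 741750828 * ((z - 0) ^ 5 * (1/10 - z) ^ 1)
        + 122273478 * ((z - 0) ^ 6 * (1/10 - z) ^ 0) := by ring
  have hw : 0 ≤ z - 0 := by linarith
  have hu : 0 ≤ 1/10 - z := by linarith
  rw [e]
  positivity

theorem A_ge0 {z : ℝ} (h0 : 1/10 ≤ z) (h1 : z ≤ 7/20) :
    0 ≤ 133 + (768/25) * z + ((-2989/5)) * z ^ 2 + (9078/25) * z ^ 3 + (-1306) * z ^ 4 + (7266/25) * z ^ 5 + (12347/5) * z ^ 6 := by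
  have e : 133 + (768/25) * z + ((-2989/5)) * z ^ 2 + (9078/25) * z ^ 3 + (-1306) * z ^ 4 + (7266/25) * z ^ 5 + (12347/5) * z ^ 6
      = 41706206656/78125 * ((z - 1/10) ^ 0 * (7/20 - z) ^ 6)
        + 243607086656/78125 * ((z - 1/10) ^ 1 * (7/20 - z) ^ 5)
        + 116246012688/15625 * ((z - 1/10) ^ 2 * (7/20 - z) ^ 4)
        + 144513876064/15625 * ((z - 1/10) ^ 3 * (7/20 - z) ^ 3)
        + 97963537908/15625 * ((z - 1/10) ^ 4 * (7/20 - z) ^ 2)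
        + 169603136036/78125 * ((z - 1/10) ^ 5 * (7/20 - z) ^ 1)
        + 23218565251/78125 * ((z - 1/10) ^ 6 * (7/20 - z) ^ 0) := by ring
  have hw : 0 ≤ z - 1/10 := by linarith
  have hu : 0 ≤ 7/20 - z := by linarith
  rw [e]
  positivity

theorem D_nn0 {z : ℝ} (h0 : 1/10 ≤ z) (h1 : z ≤ 7/20) :
    0 ≤ ((-81/400)) + (26649/2500) * z + ((-31441167/125000)) * z ^ 2 + (301270983/6250) * z ^ 3 + ((-36710310363/250000)) * z ^ 4 + ((-564607797/6250)) * z ^ 5 + (5219491333/6250) * z ^ 6 + ((-471614703/6250)) * z ^ 7 + ((-573413686691/250000)) * z ^ 8 + (8180682657/12500) * z ^ 9 + (49299144467/125000) * z ^ 10 + (1856107761/3125) * z ^ 11 + (17321127591/10000) * z ^ 12 := by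
  have e : ((-81/400)) + (26649/2500) * z + ((-31441167/125000)) * z ^ 2 + (301270983/6250) * z ^ 3 + ((-36710310363/250000)) * z ^ 4 + ((-564607797/6250)) * z ^ 5 + (5219491333/6250) * z ^ 6 + ((-471614703/6250)) * z ^ 7 + ((-573413686691/250000)) * z ^ 8 + (8180682657/12500) * z ^ 9 + (49299144467/125000) * z ^ 10 + (1856107761/3125) * z ^ 11 + (17321127591/10000) * z ^ 12
      = 81329574645120225024/152587890625 * ((z - 1/10) ^ 0 * (7/20 - z) ^ 12)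
        + 1501861169158517595648/152587890625 * ((z - 1/10) ^ 1 * (7/20 - z) ^ 11)
        + 12060051787227504118144/152587890625 * ((z - 1/10) ^ 2 * (7/20 - z) ^ 10)
        + 11143316200624291321216/30517578125 * ((z - 1/10) ^ 3 * (7/20 - z) ^ 9)
        + 33090164235028254936656/30517578125 * ((z - 1/10) ^ 4 * (7/20 - z) ^ 8)
        + 334504941527135249679808/152587890625 * ((z - 1/10) ^ 5 * (7/20 - z) ^ 7)
        + 475334657048985867244496/152587890625 * ((z - 1/10) ^ 6 * (7/20 - z) ^ 6)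
        + 481798079787765023140528/152587890625 * ((z - 1/10) ^ 7 * (7/20 - z) ^ 5)
        + 69613582848133189974461/30517578125 * ((z - 1/10) ^ 8 * (7/20 - z) ^ 4)
        + 35134602062797021043086/30517578125 * ((z - 1/10) ^ 9 * (7/20 - z) ^ 3)
        + 117775627679017132708643/305175781250 * ((z - 1/10) ^ 10 * (7/20 - z) ^ 2)
        + 23452355607001273312371/305175781250 * ((z - 1/10) ^ 11 * (7/20 - z) ^ 1)
        + 16613251806783073822119/2441406250000 * ((z - 1/10) ^ 12 * (7/20 - z) ^ 0) := by ring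
  have hw : 0 ≤ z - 1/10 := by linarith
  have hu : 0 ≤ 7/20 - z := by linarith
  rw [e]
  positivity

theorem A_ge1 {z : ℝ} (h0 : 7/20 ≤ z) (h1 : z ≤ 9/20) :
    0 ≤ 151 + (924/25) * z + ((-3267/5)) * z ^ 2 + (10674/25) * z ^ 3 + (-1464) * z ^ 4 + (8658/25) * z ^ 5 + (13541/5) * z ^ 6 := by
  have e : 151 + (924/25) * z + ((-3267/5)) * z ^ 2 + (10674/25) * z ^ 3 + (-1464) * z ^ 4 + (8658/25) * z ^ 5 + (13541/5) * z ^ 6
      = 27849148333/320 * ((z - 7/20) ^ 0 * (9/20 - z) ^ 6)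
        + 77095292481/160 * ((z - 7/20) ^ 1 * (9/20 - z) ^ 5)
        + 70308388983/64 * ((z - 7/20) ^ 2 * (9/20 - z) ^ 4)
        + 21080226971/16 * ((z - 7/20) ^ 3 * (9/20 - z) ^ 3)
        + 55972472295/64 * ((z - 7/20) ^ 4 * (9/20 - z) ^ 2)
        + 48620078433/160 * ((z - 7/20) ^ 5 * (9/20 - z) ^ 1)
        + 13782693149/320 * ((z - 7/20) ^ 6 * (9/20 - z) ^ 0) := by ring
  have hw : 0 ≤ z - 7/20 := by linarith
  have hu : 0 ≤ 9/20 - z := by linarith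
  rw [e]
  positivity

theorem D_nn1 {z : ℝ} (h0 : 7/20 ≤ z) (h1 : z ≤ 9/20) :
    0 ≤ ((-6561/400)) + (214569/2500) * z + ((-127930527/125000)) * z ^ 2 + (347587623/6250) * z ^ 3 + ((-42263824203/250000)) * z ^ 4 + ((-761402757/6250)) * z ^ 5 + (6577385013/6250) * z ^ 6 + ((-1472915343/6250)) * z ^ 7 + ((-573834945171/250000)) * z ^ 8 + (11778810417/12500) * z ^ 9 + ((-95955151773/125000)) * z ^ 10 + (3029270241/3125) * z ^ 11 + (29576486871/10000) * z ^ 12 := by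
  have e : ((-6561/400)) + (214569/2500) * z + ((-127930527/125000)) * z ^ 2 + (347587623/6250) * z ^ 3 + ((-42263824203/250000)) * z ^ 4 + ((-761402757/6250)) * z ^ 5 + (6577385013/6250) * z ^ 6 + ((-1472915343/6250)) * z ^ 7 + ((-573834945171/250000)) * z ^ 8 + (11778810417/12500) * z ^ 9 + ((-95955151773/125000)) * z ^ 10 + (3029270241/3125) * z ^ 11 + (29576486871/10000) * z ^ 12
      = 17796327802154178702039/40960000 * ((z - 7/20) ^ 0 * (9/20 - z) ^ 12)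
        + 55367723253897204315243/10240000 * ((z - 7/20) ^ 1 * (9/20 - z) ^ 11)
        + 630250818126448897357527/20480000 * ((z - 7/20) ^ 2 * (9/20 - z) ^ 10)
        + 216856455226392336438099/2048000 * ((z - 7/20) ^ 3 * (9/20 - z) ^ 9)
        + 2008733550055908216415461/8192000 * ((z - 7/20) ^ 4 * (9/20 - z) ^ 8)
        + 2060225663629486338340107/5120000 * ((z - 7/20) ^ 5 * (9/20 - z) ^ 7)
        + 4909806505584766152219297/10240000 * ((z - 7/20) ^ 6 * (9/20 - z) ^ 6)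
        + 2138270810081042453882667/5120000 * ((z - 7/20) ^ 7 * (9/20 - z) ^ 5)
        + 2159606341072401791511717/8192000 * ((z - 7/20) ^ 8 * (9/20 - z) ^ 4)
        + 240551916940963583778483/2048000 * ((z - 7/20) ^ 9 * (9/20 - z) ^ 3)
        + 716914730117631980073303/20480000 * ((z - 7/20) ^ 10 * (9/20 - z) ^ 2)
        + 64032458239104293153547/10240000 * ((z - 7/20) ^ 11 * (9/20 - z) ^ 1)
        + 20687056853569440135831/40960000 * ((z - 7/20) ^ 12 * (9/20 - z) ^ 0) := by ring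
  have hw : 0 ≤ z - 7/20 := by linarith
  have hu : 0 ≤ 9/20 - z := by linarith
  rw [e]
  positivity

theorem A_ge2 {z : ℝ} (h0 : 9/20 ≤ z) (h1 : z ≤ 13/20) :
    0 ≤ 169 + (216/5) * z + (-709) * z ^ 2 + (2454/5) * z ^ 3 + (-1622) * z ^ 4 + 402 * z ^ 5 + 2947 * z ^ 6 := by
  have e : 169 + (216/5) * z + (-709) * z ^ 2 + (2454/5) * z ^ 3 + (-1622) * z ^ 4 + 402 * z ^ 5 + 2947 * z ^ 6
      = 17589996935/4096 * ((z - 9/20) ^ 0 * (13/20 - z) ^ 7)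
        + 92457798905/4096 * ((z - 9/20) ^ 1 * (13/20 - z) ^ 6)
        + 187428586195/4096 * ((z - 9/20) ^ 2 * (13/20 - z) ^ 5)
        + 175541603325/4096 * ((z - 9/20) ^ 3 * (13/20 - z) ^ 4)
        + 65602451125/4096 * ((z - 9/20) ^ 4 * (13/20 - z) ^ 3)
        + 1222498795/4096 * ((z - 9/20) ^ 5 * (13/20 - z) ^ 2)
        + 2338295985/4096 * ((z - 9/20) ^ 6 * (13/20 - z) ^ 1)
        + 3737429215/4096 * ((z - 9/20) ^ 7 * (13/20 - z) ^ 0) := by ring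
  have hw : 0 ≤ z - 9/20 := by linarith
  have hu : 0 ≤ 13/20 - z := by linarith
  rw [e]
  positivity

theorem D_nn2 {z : ℝ} (h0 : 9/20 ≤ z) (h1 : z ≤ 13/20) :
    0 ≤ ((-2025/16)) + (729/4) * z + ((-419247/200)) * z ^ 2 + (640023/10) * z ^ 3 + ((-78859227/400)) * z ^ 4 + ((-1633653/10)) * z ^ 5 + (66431769/50) * z ^ 6 + ((-884979/2)) * z ^ 7 + ((-909091491/400)) * z ^ 8 + (25609953/20) * z ^ 9 + ((-443915853/200)) * z ^ 10 + (7111569/5) * z ^ 11 + (71037351/16) * z ^ 12 := by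
  have e : ((-2025/16)) + (729/4) * z + ((-419247/200)) * z ^ 2 + (640023/10) * z ^ 3 + ((-78859227/400)) * z ^ 4 + ((-1633653/10)) * z ^ 5 + (66431769/50) * z ^ 6 + ((-884979/2)) * z ^ 7 + ((-909091491/400)) * z ^ 8 + (25609953/20) * z ^ 9 + ((-443915853/200)) * z ^ 10 + (7111569/5) * z ^ 11 + (71037351/16) * z ^ 12
      = 36644427357783627879/268435456 * ((z - 9/20) ^ 0 * (13/20 - z) ^ 12)
        + 114318168566218738281/67108864 * ((z - 9/20) ^ 1 * (13/20 - z) ^ 11)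
        + 1274963188763085024303/134217728 * ((z - 9/20) ^ 2 * (13/20 - z) ^ 10)
        + 2082806850734986054845/67108864 * ((z - 9/20) ^ 3 * (13/20 - z) ^ 9)
        + 17555019118722506936985/268435456 * ((z - 9/20) ^ 4 * (13/20 - z) ^ 8)
        + 3091367422052417784057/33554432 * ((z - 9/20) ^ 5 * (13/20 - z) ^ 7)
        + 5853871611608091303609/67108864 * ((z - 9/20) ^ 6 * (13/20 - z) ^ 6)
        + 1860534984657075513873/33554432 * ((z - 9/20) ^ 7 * (13/20 - z) ^ 5)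
        + 6947549959337312530185/268435456 * ((z - 9/20) ^ 8 * (13/20 - z) ^ 4)
        + 884598661194625208805/67108864 * ((z - 9/20) ^ 9 * (13/20 - z) ^ 3)
        + 1129486398298516646223/134217728 * ((z - 9/20) ^ 10 * (13/20 - z) ^ 2)
        + 254010762846350483169/67108864 * ((z - 9/20) ^ 11 * (13/20 - z) ^ 1)
        + 194559092880478468119/268435456 * ((z - 9/20) ^ 12 * (13/20 - z) ^ 0) := by ring
  have hw : 0 ≤ z - 9/20 := by linarith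
  have hu : 0 ≤ 13/20 - z := by linarith
  rw [e]
  positivity

theorem c1_nnE {z : ℝ} (h0 : 13/20 ≤ z) (h1 : z ≤ 1) :
    0 ≤ 12 * z + (-125) * z ^ 2 + (1404/5) * z ^ 3 + (-1415) * z ^ 4 + (1128/5) * z ^ 5 + 2860 * z ^ 6 := by
  have e : 12 * z + (-125) * z ^ 2 + (1404/5) * z ^ 3 + (-1415) * z ^ 4 + (1128/5) * z ^ 5 + 2860 * z ^ 6
      = 1368962556/117649 * ((z - 13/20) ^ 0 * (1 - z) ^ 6)
        + 27107061216/117649 * ((z - 13/20) ^ 1 * (1 - z) ^ 5)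
        + 155086843600/117649 * ((z - 13/20) ^ 2 * (1 - z) ^ 4)
        + 413051084800/117649 * ((z - 13/20) ^ 3 * (1 - z) ^ 3)
        + 575921056000/117649 * ((z - 13/20) ^ 4 * (1 - z) ^ 2)
        + 409539840000/117649 * ((z - 13/20) ^ 5 * (1 - z) ^ 1)
        + 117657600000/117649 * ((z - 13/20) ^ 6 * (1 - z) ^ 0) := by ring
  have hw : 0 ≤ z - 13/20 := by linarith
  have hu : 0 ≤ 1 - z := by linarith
  rw [e]
  positivity

theorem c3_geE {z : ℝ} (h0 : 13/20 ≤ z) (h1 : z ≤ 1) :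
    0 ≤ 44 + (78/5) * z + (-139) * z ^ 2 + (798/5) * z ^ 3 + (-395) * z ^ 4 + (696/5) * z ^ 5 + 597 * z ^ 6 := by
  have e : 44 + (78/5) * z + (-139) * z ^ 2 + (798/5) * z ^ 3 + (-395) * z ^ 4 + (696/5) * z ^ 5 + 597 * z ^ 6
      = 273453755/16807 * ((z - 13/20) ^ 0 * (1 - z) ^ 6)
        + 2098776776/16807 * ((z - 13/20) ^ 1 * (1 - z) ^ 5)
        + 7681977600/16807 * ((z - 13/20) ^ 2 * (1 - z) ^ 4)
        + 16385116800/16807 * ((z - 13/20) ^ 3 * (1 - z) ^ 3)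
        + 20476416000/16807 * ((z - 13/20) ^ 4 * (1 - z) ^ 2)
        + 13790720000/16807 * ((z - 13/20) ^ 5 * (1 - z) ^ 1)
        + 550400000/2401 * ((z - 13/20) ^ 6 * (1 - z) ^ 0) := by ring
  have hw : 0 ≤ z - 13/20 := by linarith
  have hu : 0 ≤ 1 - z := by linarith
  rw [e]
  positivity

theorem D_nnE {z : ℝ} (h0 : 13/20 ≤ z) (h1 : z ≤ 1) :
    0 ≤ (-15625) + (-4740) * z + (2999676/25) * z ^ 2 + (-15264) * z ^ 3 + ((-4911238/25)) * z ^ 4 + (385128/5) * z ^ 5 + ((-10285456/25)) * z ^ 6 + ((-1761384/5)) * z ^ 7 + (41170119/25) * z ^ 8 + (2201628/5) * z ^ 9 + ((-51859244/25)) * z ^ 10 + (4480104/5) * z ^ 11 + 1307180 * z ^ 12 := by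
  have e : (-15625) + (-4740) * z + (2999676/25) * z ^ 2 + (-15264) * z ^ 3 + ((-4911238/25)) * z ^ 4 + (385128/5) * z ^ 5 + ((-10285456/25)) * z ^ 6 + ((-1761384/5)) * z ^ 7 + (41170119/25) * z ^ 8 + (2201628/5) * z ^ 9 + ((-51859244/25)) * z ^ 10 + (4480104/5) * z ^ 11 + 1307180 * z ^ 12
      = 9471030465874582476/13841287201 * ((z - 13/20) ^ 0 * (1 - z) ^ 12)
        + 292681740969737712480/13841287201 * ((z - 13/20) ^ 1 * (1 - z) ^ 11)
        + 3249821330083906353984/13841287201 * ((z - 13/20) ^ 2 * (1 - z) ^ 10)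
        + 19765123349125909702400/13841287201 * ((z - 13/20) ^ 3 * (1 - z) ^ 9)
        + 76682772613311035513600/13841287201 * ((z - 13/20) ^ 4 * (1 - z) ^ 8)
        + 203928824618437199872000/13841287201 * ((z - 13/20) ^ 5 * (1 - z) ^ 7)
        + 55047114930334136320000/1977326743 * ((z - 13/20) ^ 6 * (1 - z) ^ 6)
        + 524855100109385728000000/13841287201 * ((z - 13/20) ^ 7 * (1 - z) ^ 5)
        + 513994592351510528000000/13841287201 * ((z - 13/20) ^ 8 * (1 - z) ^ 4)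
        + 354277207922769920000000/13841287201 * ((z - 13/20) ^ 9 * (1 - z) ^ 3)
        + 163635183403008000000000/13841287201 * ((z - 13/20) ^ 10 * (1 - z) ^ 2)
        + 45587542573056000000000/13841287201 * ((z - 13/20) ^ 11 * (1 - z) ^ 1)
        + 5804853166080000000000/13841287201 * ((z - 13/20) ^ 12 * (1 - z) ^ 0) := by ring
  have hw : 0 ≤ z - 13/20 := by linarith
  have hu : 0 ≤ 1 - z := by linarith
  rw [e]
  positivity

theorem quad_nn {A B C p : ℝ} (hA : 0 < A) (hD : 0 ≤ 4 * A * C - B ^ 2) :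
    0 ≤ A * p ^ 2 + B * p + C := by
  have h : 0 ≤ 4 * A * (A * p ^ 2 + B * p + C) := by
    have e : 4 * A * (A * p ^ 2 + B * p + C) = (2 * A * p + B) ^ 2 + (4 * A * C - B ^ 2) := by ring
    rw [e]
    positivity
  exact nonneg_of_mul_nonneg_right h (by positivity)

theorem cubic_nn {c0 c1 c2 c3 p : ℝ} (a : ℝ) (hp : 0 ≤ p) (h3 : 0 ≤ c3)
    (hA : 0 < c2 + 2 * a * c3) (hD : 0 ≤ 4 * (c2 + 2 * a * c3) * c0 - (c1 - a ^ 2 * c3) ^ 2) :
    0 ≤ c0 + c1 * p + c2 * p ^ 2 + c3 * p ^ 3 := by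
  have h := quad_nn (p := p) hA hD
  have h2 : 0 ≤ c3 * p * (p - a) ^ 2 := by positivity
  have e : c0 + c1 * p + c2 * p ^ 2 + c3 * p ^ 3 = ((c2 + 2 * a * c3) * p ^ 2
      + (c1 - a ^ 2 * c3) * p + c0) + c3 * p * (p - a) ^ 2 := by ring
  rw [e]
  linarith

/-- the quintic in `p` -/
noncomputable def SS (z p : ℝ) : ℝ :=
  (84 * z ^ 3 - 250 * z ^ 4 + 72 * z ^ 5 + 1000 * z ^ 6)
    + (12 * z - 125 * z ^ 2 + 1404 / 5 * z ^ 3 - 1415 * z ^ 4 + 1128 / 5 * z ^ 5 + 2860 * z ^ 6) * p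
    + (125 + 138 / 5 * z - 570 * z ^ 2 + 1656 / 5 * z ^ 3 - 1227 * z ^ 4 + 1314 / 5 * z ^ 5
      + 2350 * z ^ 6) * p ^ 2
    + (45 + 78 / 5 * z - 139 * z ^ 2 + 798 / 5 * z ^ 3 - 395 * z ^ 4 + 696 / 5 * z ^ 5
      + 597 * z ^ 6) * p ^ 3
    + (18 * z ^ 2 + 126 / 5 * z ^ 3 + 30 * z ^ 4 + 162 / 5 * z ^ 5 - 48 * z ^ 6) * p ^ 4
    + (27 * z ^ 4 + 12 / 5 * z ^ 5 - 27 * z ^ 6) * p ^ 5

theorem SS_pos {z p : ℝ} (hz : 0 < z) (hz1 : z ≤ 1) (hp : 0 < p) : 0 < SS z p := by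
  have h3 := c3_nn hz.le hz1
  have h4 := c4_nn hz.le hz1
  have h0 := c0_nn hz.le hz1
  have h5 : 0 < 27 * z ^ 4 + 12 / 5 * z ^ 5 - 27 * z ^ 6 := by
    have e : 27 * z ^ 4 + 12 / 5 * z ^ 5 - 27 * z ^ 6 = 27 * z ^ 4 * (1 - z) * (1 + z)
        + 12 / 5 * z ^ 5 := by ring
    rw [e]
    have : 0 ≤ 1 - z := by linarith
    positivity
  have h5' : 0 < (27 * z ^ 4 + 12 / 5 * z ^ 5 - 27 * z ^ 6) * p ^ 5 := by positivity
  have h4' : 0 ≤ (18 * z ^ 2 + 126 / 5 * z ^ 3 + 30 * z ^ 4 + 162 / 5 * z ^ 5 - 48 * z ^ 6)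
      * p ^ 4 := by
    refine mul_nonneg ?_ (by positivity)
    linarith
  have hc3 : 0 ≤ 45 + 78 / 5 * z - 139 * z ^ 2 + 798 / 5 * z ^ 3 - 395 * z ^ 4 + 696 / 5 * z ^ 5
      + 597 * z ^ 6 := by linarith
  have hc0 : 0 ≤ 84 * z ^ 3 - 250 * z ^ 4 + 72 * z ^ 5 + 1000 * z ^ 6 := by linarith
  have key : 0 ≤ (84 * z ^ 3 - 250 * z ^ 4 + 72 * z ^ 5 + 1000 * z ^ 6)
    + (12 * z - 125 * z ^ 2 + 1404 / 5 * z ^ 3 - 1415 * z ^ 4 + 1128 / 5 * z ^ 5 + 2860 * z ^ 6) * p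
    + (125 + 138 / 5 * z - 570 * z ^ 2 + 1656 / 5 * z ^ 3 - 1227 * z ^ 4 + 1314 / 5 * z ^ 5
      + 2350 * z ^ 6) * p ^ 2
    + (45 + 78 / 5 * z - 139 * z ^ 2 + 798 / 5 * z ^ 3 - 395 * z ^ 4 + 696 / 5 * z ^ 5
      + 597 * z ^ 6) * p ^ 3 := by
    rcases le_total z (1 / 10) with h | h
    · have h1 := c1_nnA hz.le h
      have h2 := c2_nnA hz.le h
      have e1 : 0 ≤ (12 * z - 125 * z ^ 2 + 1404 / 5 * z ^ 3 - 1415 * z ^ 4 + 1128 / 5 * z ^ 5
        + 2860 * z ^ 6) * p := mul_nonneg (by linarith) hp.le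
      have e2 : 0 ≤ (125 + 138 / 5 * z - 570 * z ^ 2 + 1656 / 5 * z ^ 3 - 1227 * z ^ 4
        + 1314 / 5 * z ^ 5 + 2350 * z ^ 6) * p ^ 2 := mul_nonneg (by linarith) (by positivity)
      have e3 := mul_nonneg hc3 (by positivity : 0 ≤ p ^ 3)
      linarith
    rcases le_total z (7 / 20) with h' | h'
    · have hA := A_ge0 h h'
      have hD := D_nn0 h h'
      exact cubic_nn (1 / 10) hp.le hc3 (by linarith) (by linarith)
    rcases le_total z (9 / 20) with h'' | h''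
    · have hA := A_ge1 h' h''
      have hD := D_nn1 h' h''
      exact cubic_nn (3 / 10) hp.le hc3 (by linarith) (by linarith)
    rcases le_total z (13 / 20) with h3' | h3'
    · have hA := A_ge2 h'' h3'
      have hD := D_nn2 h'' h3'
      exact cubic_nn (1 / 2) hp.le hc3 (by linarith) (by linarith)
    · have hA := c3_geE h3' hz1
      have hD := D_nnE h3' hz1
      have h6 := quad_nn (p := p) (A := 45 + 78 / 5 * z - 139 * z ^ 2 + 798 / 5 * z ^ 3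
        - 395 * z ^ 4 + 696 / 5 * z ^ 5 + 597 * z ^ 6) (B := 125 + 138 / 5 * z - 570 * z ^ 2
        + 1656 / 5 * z ^ 3 - 1227 * z ^ 4 + 1314 / 5 * z ^ 5 + 2350 * z ^ 6)
        (C := 12 * z - 125 * z ^ 2 + 1404 / 5 * z ^ 3 - 1415 * z ^ 4 + 1128 / 5 * z ^ 5
        + 2860 * z ^ 6) (by linarith) (by linarith)
      have h7 := mul_nonneg h6 hp.le
      linarith
  unfold SS
  linarith

end Vale.Agent.P254.S3
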