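import Vale.Agent.P254.H156.Two
import Vale.Agent.P254.S3.H533.C2a

/-!
P254, (SP_0) line, block SP-1C (helper533): `|r'''| ≤ nu / 20`.

`n = nu`, `c = 1 - lm nu`, `q = n² - c`, `D = 2 c² - (1 - c) q > 0`.  The bounds are the first order
barriers `t ≶ (1 - c) (q + 3 c ± n / 20) / ((n² + c)² + q)`; they reduce to `n A2 ± 20 A1 > 0` along
the curve `(nu, cc)`, which is proved by a second barrier.
-/

set_option linter.all false

namespace Vale.Agent.P254.S3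

open Real Set Filter Topology MeasureTheory
open Vale.Agent.P254.H156

/-! ### the two polynomials -/

noncomputable def A1 (n c : ℝ) : ℝ := (1 - c) * n ^ 6 + (1 - c) * (c + 4) * n ^ 4 - c * (5 + 2 * c - c ^ 2) * n ^ 2
  + c ^ 2 * (1 - c) ^ 2
noncomputable def A2 (n c : ℝ) : ℝ := n ^ 6 + (2 * c + 3) * n ^ 4 - (1 - c ^ 2) * n ^ 2 + c * (1 - c)
noncomputable def A1n (n c : ℝ) : ℝ := 6 * (1 - c) * n ^ 5 + 4 * (1 - c) * (c + 4) * n ^ 3
  - 2 * c * (5 + 2 * c - c ^ 2) * n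
noncomputable def A1c (n c : ℝ) : ℝ := -n ^ 6 - (3 + 2 * c) * n ^ 4 - (5 + 4 * c - 3 * c ^ 2) * n ^ 2
  + 2 * c * (1 - c) * (1 - 2 * c)
noncomputable def A2n (n c : ℝ) : ℝ := 6 * n ^ 5 + 4 * (2 * c + 3) * n ^ 3 - 2 * (1 - c ^ 2) * n
noncomputable def A2c (n c : ℝ) : ℝ := 2 * n ^ 4 + 2 * c * n ^ 2 + 1 - 2 * c

/-- `D = 2 c² - (1 - c) (n² - c)` -/
noncomputable def DD (n c : ℝ) : ℝ := 2 * c ^ 2 - (1 - c) * (n ^ 2 - c)

theorem A1_eq (n c : ℝ) : A1 n c = (n ^ 2 - c) * c ^ 2 * (6 + 4 * c + 2 * (n ^ 2 - c))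
    - DD n c * (3 * c + 4 * (1 + c) * (n ^ 2 - c) + (n ^ 2 - c) ^ 2) := by
  unfold A1 DD; ring

theorem A2_eq (n c : ℝ) : A2 n c = DD n c + (4 * c ^ 3 + (n ^ 2 - c) * (5 * c + 8 * c ^ 2)
    + (n ^ 2 - c) ^ 2 * (3 + 5 * c) + (n ^ 2 - c) ^ 3) := by
  unfold A2 DD; ring

theorem hasDerivAt_A1 (x : ℝ) : HasDerivAt (fun x => A1 (nu x) (cc x))
    (A1n (nu x) (cc x) * (-cc x) + A1c (nu x) (cc x) * (-(lm x * (nu x ^ 2 - cc x)))) x := by
  have hn := hasDerivAt_nu' x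
  have hc := hasDerivAt_cc x
  have h1 := (hc.const_sub 1).mul (hn.pow 6)
  have h2 := ((hc.const_sub 1).mul (hc.add_const 4)).mul (hn.pow 4)
  have h3 := (hc.mul (((hc.const_mul 2).const_add 5).sub (hc.pow 2))).mul (hn.pow 2)
  have h4 := (hc.pow 2).mul ((hc.const_sub 1).pow 2)
  refine (((h1.add h2).sub h3).add h4).congr_of_eventuallyEq (Eventually.of_forall fun y => ?_)
    |>.congr_deriv ?_
  · simp [A1]
  · simp only [Pi.add_apply, Pi.mul_apply, Pi.sub_apply, Pi.pow_apply, Nat.cast_ofNat,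
      Nat.reduceSub, pow_one, A1n, A1c]
    ring

theorem hasDerivAt_A2 (x : ℝ) : HasDerivAt (fun x => A2 (nu x) (cc x))
    (A2n (nu x) (cc x) * (-cc x) + A2c (nu x) (cc x) * (-(lm x * (nu x ^ 2 - cc x)))) x := by
  have hn := hasDerivAt_nu' x
  have hc := hasDerivAt_cc x
  have h1 := hn.pow 6
  have h2 := ((hc.const_mul 2).add_const 3).mul (hn.pow 4)
  have h3 := ((hc.pow 2).const_sub 1).mul (hn.pow 2)
  have h4 := hc.mul (hc.const_sub 1)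
  refine (((h1.add h2).sub h3).add h4).congr_of_eventuallyEq (Eventually.of_forall fun y => ?_)
    |>.congr_deriv ?_
  · simp [A2]
  · simp only [Pi.add_apply, Pi.mul_apply, Pi.sub_apply, Pi.pow_apply, Nat.cast_ofNat,
      Nat.reduceSub, pow_one, A2n, A2c]
    ring

/-! ### lower barrier polynomial `FL = n A2 - 20 A1` -/

noncomputable def FL (n c : ℝ) : ℝ := n * A2 n c - 20 * A1 n c
noncomputable def FU (n c : ℝ) : ℝ := n * A2 n c + 20 * A1 n c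

theorem hasDerivAt_FL (x : ℝ) : HasDerivAt (fun x => FL (nu x) (cc x))
    ((-cc x) * A2 (nu x) (cc x) + nu x * (A2n (nu x) (cc x) * (-cc x)
      + A2c (nu x) (cc x) * (-(lm x * (nu x ^ 2 - cc x))))
      - 20 * (A1n (nu x) (cc x) * (-cc x) + A1c (nu x) (cc x) * (-(lm x * (nu x ^ 2 - cc x))))) x :=
  ((hasDerivAt_nu' x).mul (hasDerivAt_A2 x)).sub ((hasDerivAt_A1 x).const_mul 20)

theorem hasDerivAt_FU (x : ℝ) : HasDerivAt (fun x => FU (nu x) (cc x))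
    ((-cc x) * A2 (nu x) (cc x) + nu x * (A2n (nu x) (cc x) * (-cc x)
      + A2c (nu x) (cc x) * (-(lm x * (nu x ^ 2 - cc x))))
      + 20 * (A1n (nu x) (cc x) * (-cc x) + A1c (nu x) (cc x) * (-(lm x * (nu x ^ 2 - cc x))))) x :=
  ((hasDerivAt_nu' x).mul (hasDerivAt_A2 x)).add ((hasDerivAt_A1 x).const_mul 20)

noncomputable def XL (q v : ℝ) : ℝ := 14 * v ^ 3 + 12 * v ^ 4 + q * (2 * v + 164 / 5 * v ^ 2 + 128 / 5 * v ^ 3)
  + q ^ 2 * (13 / 5 + 112 / 5 * v + 91 / 5 * v ^ 2) + q ^ 3 * (21 / 5 + 5 * v) + 2 / 5 * q ^ 4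
noncomputable def YL (q v : ℝ) : ℝ := -2 * v ^ 4 + 8 * v ^ 5 + q * (-v ^ 2 - 53 / 5 * v ^ 3 + 20 * v ^ 4)
  + q ^ 2 * (1 - 21 / 5 * v - 6 * v ^ 2 + 58 / 5 * v ^ 3) + q ^ 3 * (2 / 5 - v + 3 / 5 * v ^ 2)
  + q ^ 4 * (3 / 5 - 3 / 5 * v)

theorem HL_pos {n c : ℝ} (hn : 0 < n) (hc : 0 < c) (hc1 : c < 1) (hq : 0 < n ^ 2 - c) :
    0 < n * XL (n ^ 2 - c) c + 20 * YL (n ^ 2 - c) c := by
  obtain ⟨z, hz, rfl⟩ : ∃ z : ℝ, 0 < z ∧ z ^ 2 = c := ⟨√c, Real.sqrt_pos.2 hc, Real.sq_sqrt hc.le⟩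
  have hz1 : z ≤ 1 := by nlinarith
  obtain ⟨p, hp⟩ : ∃ p : ℝ, n ^ 2 - z ^ 2 = z ^ 2 * p := ⟨(n ^ 2 - z ^ 2) / z ^ 2, by field_simp⟩
  have hp0 : 0 < p := by
    rw [hp] at hq
    exact (pos_iff_pos_of_mul_pos hq).1 (by positivity)
  have hn2 : n ^ 2 = z ^ 2 * (1 + p) := by linarith
  have hS := SS_pos hz hz1 hp0
  have h1 : 24 * n ≤ z * (25 + 9 * p) := by
    have h3 : 0 ≤ (4 * z - 3 * n) ^ 2 := sq_nonneg _
    have h4 : z * (24 * n) ≤ z * (z * (25 + 9 * p)) := by nlinarith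
    exact le_of_mul_le_mul_left h4 hz
  have h2 : 24 * (z * (1 + p)) ≤ n * (25 + 9 * p) := by
    have h4 : z * (24 * (z * (1 + p))) ≤ z * (n * (25 + 9 * p)) := by nlinarith
    exact le_of_mul_le_mul_left h4 hz
  set Xh : ℝ := 14 * z ^ 2 + 12 * z ^ 4 + p * (2 + 164 / 5 * z ^ 2 + 128 / 5 * z ^ 4)
    + p ^ 2 * (13 / 5 + 112 / 5 * z ^ 2 + 91 / 5 * z ^ 4) + p ^ 3 * (21 / 5 * z ^ 2 + 5 * z ^ 4)
    + 2 / 5 * p ^ 4 * z ^ 4 with hXh
  set Yh : ℝ := -2 * z ^ 4 + 8 * z ^ 6 + p * (-z ^ 2 - 53 / 5 * z ^ 4 + 20 * z ^ 6)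
    + p ^ 2 * (1 - 21 / 5 * z ^ 2 - 6 * z ^ 4 + 58 / 5 * z ^ 6)
    + p ^ 3 * (2 / 5 * z ^ 2 - z ^ 4 + 3 / 5 * z ^ 6) + p ^ 4 * (3 / 5 * z ^ 4 - 3 / 5 * z ^ 6)
    with hYh
  have hX0 : 0 < Xh := by rw [hXh]; positivity
  have hX : XL (n ^ 2 - z ^ 2) (z ^ 2) = z ^ 4 * Xh := by
    rw [hp, hXh]; unfold XL; ring
  have hY : YL (n ^ 2 - z ^ 2) (z ^ 2) = z ^ 4 * Yh := by
    rw [hp, hYh]; unfold YL; ring
  rw [hX, hY]
  have h5 : 4 * SS z p = 24 * (z * (1 + p)) * Xh + 20 * (25 + 9 * p) * Yh := by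
    rw [hXh, hYh]; unfold SS; ring
  have h6 : 24 * (z * (1 + p)) * Xh ≤ n * (25 + 9 * p) * Xh := mul_le_mul_of_nonneg_right h2 hX0.le
  have h7 : 0 < (25 + 9 * p) * (n * Xh + 20 * Yh) := by
    have e : (25 + 9 * p) * (n * Xh + 20 * Yh) = n * (25 + 9 * p) * Xh + 20 * (25 + 9 * p) * Yh := by
      ring
    rw [e]
    linarith
  have h8 : 0 < n * Xh + 20 * Yh := (pos_iff_pos_of_mul_pos h7).1 (by positivity)
  have e : n * (z ^ 4 * Xh) + 20 * (z ^ 4 * Yh) = z ^ 4 * (n * Xh + 20 * Yh) := by ring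
  rw [e]
  positivity

theorem FL_deriv_neg {n c l : ℝ} (hn : 0 < n) (hc : 0 < c) (hc1 : c < 1) (hq : 0 < n ^ 2 - c)
    (hl : l * n = 1 - c) (h0 : FL n c = 0) :
    (-c) * A2 n c + n * (A2n n c * (-c) + A2c n c * (-(l * (n ^ 2 - c))))
      - 20 * (A1n n c * (-c) + A1c n c * (-(l * (n ^ 2 - c)))) < 0 := by
  have hk := HL_pos hn hc hc1 hq
  have h1 : n * ((-c) * A2 n c + n * (A2n n c * (-c) + A2c n c * (-(l * (n ^ 2 - c))))
      - 20 * (A1n n c * (-c) + A1c n c * (-(l * (n ^ 2 - c)))))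
      = -(n * XL (n ^ 2 - c) c + 20 * YL (n ^ 2 - c) c)
        - (2 * c - 1 - 2 / 5 * (n ^ 2 - c)) * FL n c := by
    have e : n * ((-c) * A2 n c + n * (A2n n c * (-c) + A2c n c * (-(l * (n ^ 2 - c))))
      - 20 * (A1n n c * (-c) + A1c n c * (-(l * (n ^ 2 - c)))))
      = n * ((-c) * A2 n c + n * (A2n n c * (-c)) - 20 * (A1n n c * (-c)))
        - (n * A2c n c - 20 * A1c n c) * (n ^ 2 - c) * (l * n) := by ring
    rw [e, hl]
    unfold FL XL YL A1 A2 A1n A1c A2n A2c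
    ring
  rw [h0] at h1
  by_contra hcon
  push Not at hcon
  have := mul_nonneg hn.le hcon
  rw [h1] at this
  linarith

/-! ### upper barrier polynomial `FU = n A2 + 20 A1` -/

noncomputable def XU (q v : ℝ) : ℝ := 14 * v ^ 3 + 10 * v ^ 4 - 4 * v ^ 5
  + q * (2 * v + 34 * v ^ 2 + 20 * v ^ 3 - 8 * v ^ 4)
  + q ^ 2 * (5 / 2 + 23 * v + 16 * v ^ 2 - 5 * v ^ 3) + q ^ 3 * (9 / 2 + 11 / 2 * v - v ^ 2)
  + 1 / 2 * q ^ 4
noncomputable def YU (q v : ℝ) : ℝ := 2 * v ^ 4 - 2 * v ^ 5 + q * (v ^ 2 + 7 * v ^ 3 - 15 * v ^ 4 + 4 * v ^ 5)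
  + q ^ 2 * (-1 + 9 / 2 * v + 3 / 2 * v ^ 2 - 12 * v ^ 3 + 4 * v ^ 4)
  + q ^ 3 * (v - 2 * v ^ 2 + v ^ 3) + q ^ 4 * (1 / 2 * v - 1 / 2)

theorem TU_pos {q v : ℝ} (hq : 0 < q) (hv : 0 < v) (hv1 : v < 1) :
    0 < 24 * (q + v) * XU q v + 20 * (9 * (q + v) + 16) * (q * v ^ 3 * (7 - 14 * v + 4 * v ^ 2)
      + q ^ 2 * v * (5 / 2 + 5 / 2 * v - 12 * v ^ 2 + 4 * v ^ 3)
      + q ^ 3 * v * (1 - 3 * v + v ^ 2)) := by
  have e : 24 * (q + v) * XU q v + 20 * (9 * (q + v) + 16) * (q * v ^ 3 * (7 - 14 * v + 4 * v ^ 2)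
      + q ^ 2 * v * (5 / 2 + 5 / 2 * v - 12 * v ^ 2 + 4 * v ^ 3)
      + q ^ 3 * v * (1 - 3 * v + v ^ 2))
      = (336 * v ^ 4 + 240 * v ^ 5 - 96 * v ^ 6)
      + q * (48 * v ^ 2 + 3392 * v ^ 3 - 2500 * v ^ 4 - 1528 * v ^ 5 + 720 * v ^ 6)
      + q ^ 2 * (908 * v + 2618 * v ^ 2 - 1266 * v ^ 3 - 3712 * v ^ 4 + 1440 * v ^ 5)
      + q ^ 3 * (60 + 1430 * v + 186 * v ^ 2 - 2524 * v ^ 3 + 900 * v ^ 4)
      + q ^ 4 * (108 + 324 * v - 564 * v ^ 2 + 180 * v ^ 3) + 12 * q ^ 5 := by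
    unfold XU; ring
  have h1 : 0 ≤ 1 - v := by linarith
  have e0 : 0 < 336 * v ^ 4 + 240 * v ^ 5 - 96 * v ^ 6 := by
    have : 336 * v ^ 4 + 240 * v ^ 5 - 96 * v ^ 6 = 336 * v ^ 4 + 144 * v ^ 5
      + 96 * v ^ 5 * (1 - v) := by ring
    rw [this]; positivity
  have e1 : 45 * v ^ 2 ≤ 48 * v ^ 2 + 3392 * v ^ 3 - 2500 * v ^ 4 - 1528 * v ^ 5 + 720 * v ^ 6 := by
    have : 48 * v ^ 2 + 3392 * v ^ 3 - 2500 * v ^ 4 - 1528 * v ^ 5 + 720 * v ^ 6 - 45 * v ^ 2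
        = v ^ 2 * (3 * (1 - v) ^ 4 + 3404 * v * (1 - v) ^ 3 + 7694 * v ^ 2 * (1 - v) ^ 2
          + 3660 * v ^ 3 * (1 - v) + 87 * v ^ 4) := by ring
    have h : 0 ≤ v ^ 2 * (3 * (1 - v) ^ 4 + 3404 * v * (1 - v) ^ 3 + 7694 * v ^ 2 * (1 - v) ^ 2
          + 3660 * v ^ 3 * (1 - v) + 87 * v ^ 4) := by positivity
    linarith
  have e2 : -18 * v ≤ 908 * v + 2618 * v ^ 2 - 1266 * v ^ 3 - 3712 * v ^ 4 + 1440 * v ^ 5 := by
    have : 908 * v + 2618 * v ^ 2 - 1266 * v ^ 3 - 3712 * v ^ 4 + 1440 * v ^ 5 + 18 * v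
        = v * (926 * (1 - v) ^ 4 + 6322 * v * (1 - v) ^ 3 + 12144 * v ^ 2 * (1 - v) ^ 2
          + 5314 * v ^ 3 * (1 - v) + 6 * v ^ 4) := by ring
    have h : 0 ≤ v * (926 * (1 - v) ^ 4 + 6322 * v * (1 - v) ^ 3 + 12144 * v ^ 2 * (1 - v) ^ 2
          + 5314 * v ^ 3 * (1 - v) + 6 * v ^ 4) := by positivity
    linarith
  have e3 : 45 ≤ 60 + 1430 * v + 186 * v ^ 2 - 2524 * v ^ 3 + 900 * v ^ 4 := by
    have : 60 + 1430 * v + 186 * v ^ 2 - 2524 * v ^ 3 + 900 * v ^ 4 - 45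
        = 15 * (1 - v) ^ 4 + 1490 * v * (1 - v) ^ 3 + 4566 * v ^ 2 * (1 - v) ^ 2
          + 2198 * v ^ 3 * (1 - v) + 7 * v ^ 4 := by ring
    have h : 0 ≤ 15 * (1 - v) ^ 4 + 1490 * v * (1 - v) ^ 3 + 4566 * v ^ 2 * (1 - v) ^ 2
          + 2198 * v ^ 3 * (1 - v) + 7 * v ^ 4 := by positivity
    linarith
  have e4 : 0 ≤ 108 + 324 * v - 564 * v ^ 2 + 180 * v ^ 3 := by
    have : 108 + 324 * v - 564 * v ^ 2 + 180 * v ^ 3
        = 108 * (1 - v) ^ 3 + 648 * v * (1 - v) ^ 2 + 408 * v ^ 2 * (1 - v) + 48 * v ^ 3 := by ring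
    rw [this]; positivity
  rw [e]
  have f1 := mul_le_mul_of_nonneg_left e1 hq.le
  have f2 := mul_le_mul_of_nonneg_left e2 (by positivity : 0 ≤ q ^ 2)
  have f3 := mul_le_mul_of_nonneg_left e3 (by positivity : 0 ≤ q ^ 3)
  have f4 := mul_nonneg (by positivity : 0 ≤ q ^ 4) e4
  have f5 : 0 ≤ 12 * q ^ 5 := by positivity
  have f6 : 0 ≤ q * (45 * v ^ 2) + q ^ 2 * (-18 * v) + q ^ 3 * 45 := by
    have : q * (45 * v ^ 2) + q ^ 2 * (-18 * v) + q ^ 3 * 45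
      = q * (9 * (v - q) ^ 2 + 36 * v ^ 2 + 36 * q ^ 2) := by ring
    rw [this]; positivity
  linarith

theorem HU_pos {n c : ℝ} (hn : 0 < n) (hc : 0 < c) (hc1 : c < 1) (hq : 0 < n ^ 2 - c)
    (hD : 0 < DD n c) : 0 < n * XU (n ^ 2 - c) c + 20 * YU (n ^ 2 - c) c := by
  have hT := TU_pos hq hc hc1
  have hs : n ^ 2 = (n ^ 2 - c) + c := by ring
  set q : ℝ := n ^ 2 - c with hqdef
  have hDq : DD n c = 2 * c ^ 2 - (1 - c) * q := by unfold DD; rw [hqdef]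
  rw [hDq] at hD
  have h1c : 0 ≤ 1 - c := by linarith
  have hX0 : 0 < XU q c := by
    have : XU q c = 10 * c ^ 3 + 10 * c ^ 4 + 4 * c ^ 3 * (1 - c ^ 2)
        + q * (2 * c + 34 * c ^ 2 + 12 * c ^ 3 + 8 * c ^ 3 * (1 - c))
        + q ^ 2 * (5 / 2 + 18 * c + 16 * c ^ 2 + 5 * c * (1 - c ^ 2))
        + q ^ 3 * (9 / 2 + 9 / 2 * c + c * (1 - c)) + 1 / 2 * q ^ 4 := by unfold XU; ring
    rw [this]
    have h2c : 0 ≤ 1 - c ^ 2 := by nlinarith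
    positivity
  set R : ℝ := q * c ^ 3 * (7 - 14 * c + 4 * c ^ 2)
      + q ^ 2 * c * (5 / 2 + 5 / 2 * c - 12 * c ^ 2 + 4 * c ^ 3)
      + q ^ 3 * c * (1 - 3 * c + c ^ 2) with hR
  have hY : YU q c = (1 - c) * (2 * c ^ 2 - (1 - c) * q) * (c ^ 2 + q) + R
      + 1 / 2 * (2 * c ^ 2 - (1 - c) * q) * q ^ 3 := by
    unfold YU; rw [hR]; ring
  have h2 : 24 * (q + c) ≤ n * (9 * (q + c) + 16) := by
    have e : n * (9 * (q + c) + 16) - 24 * (q + c) = n * (3 * n - 4) ^ 2 := by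
      rw [← hs]; ring
    have : 0 ≤ n * (3 * n - 4) ^ 2 := by positivity
    linarith
  have h3 : 24 * (q + c) * XU q c ≤ n * (9 * (q + c) + 16) * XU q c :=
    mul_le_mul_of_nonneg_right h2 hX0.le
  have h4 : 0 < (9 * (q + c) + 16) * (n * XU q c + 20 * R) := by
    have e : (9 * (q + c) + 16) * (n * XU q c + 20 * R)
      = n * (9 * (q + c) + 16) * XU q c + 20 * (9 * (q + c) + 16) * R := by ring
    rw [e]
    linarith
  have h5 : 0 < n * XU q c + 20 * R := (pos_iff_pos_of_mul_pos h4).1 (by positivity)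
  have h6 : 0 ≤ (1 - c) * (2 * c ^ 2 - (1 - c) * q) * (c ^ 2 + q) := by positivity
  have h7 : 0 ≤ 1 / 2 * (2 * c ^ 2 - (1 - c) * q) * q ^ 3 := by positivity
  rw [hY]
  linarith

theorem FU_deriv_neg {n c l : ℝ} (hn : 0 < n) (hc : 0 < c) (hc1 : c < 1) (hq : 0 < n ^ 2 - c)
    (hD : 0 < DD n c) (hl : l * n = 1 - c) (h0 : FU n c = 0) :
    (-c) * A2 n c + n * (A2n n c * (-c) + A2c n c * (-(l * (n ^ 2 - c))))
      + 20 * (A1n n c * (-c) + A1c n c * (-(l * (n ^ 2 - c)))) < 0 := by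
  have hk := HU_pos hn hc hc1 hq hD
  have h1 : n * ((-c) * A2 n c + n * (A2n n c * (-c) + A2c n c * (-(l * (n ^ 2 - c))))
      + 20 * (A1n n c * (-c) + A1c n c * (-(l * (n ^ 2 - c)))))
      = -(n * XU (n ^ 2 - c) c + 20 * YU (n ^ 2 - c) c)
        - (2 * c - 1 + c ^ 2 - 1 / 2 * (n ^ 2 - c)) * FU n c := by
    have e : n * ((-c) * A2 n c + n * (A2n n c * (-c) + A2c n c * (-(l * (n ^ 2 - c))))
      + 20 * (A1n n c * (-c) + A1c n c * (-(l * (n ^ 2 - c)))))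
      = n * ((-c) * A2 n c + n * (A2n n c * (-c)) + 20 * (A1n n c * (-c)))
        - (n * A2c n c + 20 * A1c n c) * (n ^ 2 - c) * (l * n) := by ring
    rw [e, hl]
    unfold FU XU YU A1 A2 A1n A1c A2n A2c
    ring
  rw [h0] at h1
  by_contra hcon
  push Not at hcon
  have := mul_nonneg hn.le hcon
  rw [h1] at this
  linarith

/-! ### along the curve -/

theorem DD_pos (x : ℝ) : 0 < DD (nu x) (cc x) := by
  have h := P_pos x
  have e : DD (nu x) (cc x) = (1 - lm x * nu x) * (2 - lm x * nu x) - nu x ^ 2 * (lm x * nu x) := by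
    unfold DD cc; ring
  rw [e]; exact h

theorem FL_pos_of_small {x : ℝ} (hx : cc x < 1 / 1000) : 0 < FL (nu x) (cc x) := by
  have hn := nu_pos x
  have hc := cc_pos x
  have hq := q_pos x
  have hD := DD_pos x
  unfold FL
  rw [A1_eq, A2_eq]
  set n := nu x
  set c := cc x
  obtain ⟨q, hqd⟩ : ∃ q, n ^ 2 - c = q := ⟨_, rfl⟩
  have hDq : DD n c = 2 * c ^ 2 - (1 - c) * q := by unfold DD; rw [hqd]
  obtain ⟨d, hd⟩ : ∃ d, DD n c = d := ⟨_, rfl⟩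
  rw [hqd] at hq ⊢
  rw [hd] at hD hDq ⊢
  have hn31 : 31 * c < n := by
    by_contra hcon
    push Not at hcon
    nlinarith
  have hq1 : q < 1 / 100 := by nlinarith
  have h1 : 20 * (q * c ^ 2 * (6 + 4 * c + 2 * q)) ≤ n * (q * (5 * c)) := by
    have h2 : 6 + 4 * c + 2 * q ≤ 7 := by linarith
    have h3 : 20 * (q * c ^ 2 * (6 + 4 * c + 2 * q)) ≤ 20 * (q * c ^ 2 * 7) := by
      have := mul_le_mul_of_nonneg_left h2 (by positivity : 0 ≤ q * c ^ 2)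
      linarith
    have h4 : (q * (5 * c)) * (31 * c) ≤ (q * (5 * c)) * n :=
      mul_le_mul_of_nonneg_left hn31.le (by positivity)
    have h5 : 0 ≤ q * c ^ 2 := by positivity
    nlinarith
  have h6 : 0 < n * (4 * c ^ 3) := by positivity
  have h7 : 0 ≤ n * (q * (8 * c ^ 2) + q ^ 2 * (3 + 5 * c) + q ^ 3) := by positivity
  have h8 : 0 ≤ d * (n + 20 * (3 * c + 4 * (1 + c) * q + q ^ 2)) := by positivity
  nlinarith

theorem FU_pos_of_small {x : ℝ} (hx : cc x < 1 / 10000) : 0 < FU (nu x) (cc x) := by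
  have hn := nu_pos x
  have hc := cc_pos x
  have hq := q_pos x
  have hD := DD_pos x
  unfold FU
  rw [A1_eq, A2_eq]
  set n := nu x
  set c := cc x
  obtain ⟨q, hqd⟩ : ∃ q, n ^ 2 - c = q := ⟨_, rfl⟩
  have hDq : DD n c = 2 * c ^ 2 - (1 - c) * q := by unfold DD; rw [hqd]
  obtain ⟨d, hd⟩ : ∃ d, DD n c = d := ⟨_, rfl⟩
  rw [hqd] at hq ⊢
  rw [hd] at hD hDq ⊢
  have hn31 : 100 * c < n := by
    by_contra hcon
    push Not at hcon
    nlinarith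
  have hq1 : q < 3 * c ^ 2 := by nlinarith
  have hq2 : q < c / 1000 := by nlinarith
  have h1 : 20 * (3 * c + 4 * (1 + c) * q + q ^ 2) ≤ 100 * c := by nlinarith
  have h2 : 0 ≤ d * (n - 20 * (3 * c + 4 * (1 + c) * q + q ^ 2)) :=
    mul_nonneg hD.le (by linarith)
  have h6 : 0 < n * (4 * c ^ 3 + q * (5 * c + 8 * c ^ 2) + q ^ 2 * (3 + 5 * c) + q ^ 3) := by
    positivity
  have h7 : 0 ≤ 20 * (q * c ^ 2 * (6 + 4 * c + 2 * q)) := by positivity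
  nlinarith

theorem pos_of_barrier {f f' : ℝ → ℝ} {ε : ℝ} (hε : 0 < ε) (hf : ∀ x, HasDerivAt f (f' x) x)
    (h0 : ∀ x, f x = 0 → f' x < 0) (hs : ∀ x, cc x < ε → 0 < f x) (x : ℝ) : 0 < f x := by
  by_contra hc
  push Not at hc
  obtain ⟨y, hxy, hy⟩ : ∃ y, x < y ∧ cc y < ε :=
    ((eventually_gt_atTop x).and (tendsto_cc_top.eventually (gt_mem_nhds hε))).exists
  have h := image_le_of_deriv_right_lt_deriv_boundary (f := f) (f' := f') (a := x) (b := y)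
    (fun z _ => (hf z).continuousAt.continuousWithinAt)
    (fun z _ => (hf z).hasDerivWithinAt)
    (B := fun _ => 0) (B' := fun _ => 0) hc (fun z => hasDerivAt_const z 0)
    (fun z _ hz => h0 z hz) (show y ∈ Icc x y from ⟨hxy.le, le_rfl⟩)
  have h2 := hs y hy
  linarith

theorem FL_pos (x : ℝ) : 0 < FL (nu x) (cc x) :=
  pos_of_barrier (by norm_num : (0:ℝ) < 1 / 1000) hasDerivAt_FL
    (fun x h => FL_deriv_neg (nu_pos x) (cc_pos x) (cc_lt_one x) (q_pos x) (lm_mul_nu x) h)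
    (fun x h => FL_pos_of_small h) x

theorem FU_pos (x : ℝ) : 0 < FU (nu x) (cc x) :=
  pos_of_barrier (by norm_num : (0:ℝ) < 1 / 10000) hasDerivAt_FU
    (fun x h => FU_deriv_neg (nu_pos x) (cc_pos x) (cc_lt_one x) (q_pos x) (DD_pos x)
      (lm_mul_nu x) h)
    (fun x h => FU_pos_of_small h) x

/-! ### the first order barriers for `t` -/

noncomputable def DN (n c : ℝ) : ℝ := (n ^ 2 + c) ^ 2 + (n ^ 2 - c)

theorem DN_pos (x : ℝ) : 0 < DN (nu x) (cc x) := by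
  have h1 := cc_pos x
  have h2 := q_pos x
  have h3 : 0 < (nu x ^ 2 + cc x) ^ 2 := by positivity
  unfold DN
  linarith

theorem DN_ge (x : ℝ) : nu x ^ 4 ≤ DN (nu x) (cc x) := by
  have h1 := cc_pos x
  have h2 := q_pos x
  have h3 : 0 ≤ 2 * nu x ^ 2 * cc x + cc x ^ 2 := by positivity
  unfold DN
  nlinarith

theorem hasDerivAt_B (s x : ℝ) : HasDerivAt
    (fun x => lm x * (nu x * (nu x ^ 2 + 2 * cc x + s * nu x)) / DN (nu x) (cc x))
    (lm x + lm x * (s * nu x * A2 (nu x) (cc x) - A1 (nu x) (cc x)) / DN (nu x) (cc x) ^ 2) x := by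
  have hD := (DN_pos x).ne'
  have hn := hasDerivAt_nu' x
  have hc := hasDerivAt_cc x
  have h1 := ((hn.pow 2).add (hc.const_mul 2)).add (hn.const_mul s)
  have h2 := (hasDerivAt_lm x).mul (hn.mul h1)
  have h3 := (((hn.pow 2).add hc).pow 2).add ((hn.pow 2).sub hc)
  have h4 := h2.div h3 (by simpa [DN] using hD)
  refine (h4.congr_of_eventuallyEq (Eventually.of_forall fun y => ?_)).congr_deriv ?_
  · simp [DN]
  · simp only [Pi.add_apply, Pi.mul_apply, Pi.sub_apply, Pi.pow_apply, Nat.cast_ofNat,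
      Nat.reduceSub, pow_one]
    have hl := lm_mul_nu x
    have hn0 := (nu_pos x).ne'
    have hl2 : lm x = (1 - cc x) / nu x := by rw [← hl]; field_simp
    have e : (nu x ^ 2 + cc x) ^ 2 + (nu x ^ 2 - cc x) = DN (nu x) (cc x) := rfl
    rw [hl2, e]
    field_simp
    unfold DN A1 A2
    ring

theorem tendsto_B (s : ℝ) (hs : |s| ≤ 1) : Tendsto
    (fun x => lm x * (nu x * (nu x ^ 2 + 2 * cc x + s * nu x)) / DN (nu x) (cc x)) atBot (𝓝 0) := by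
  have h4 : Tendsto (fun x => lm x * 4) atBot (𝓝 0) := by
    simpa using tendsto_lm_bot.mul_const 4
  refine squeeze_zero_norm' ?_ h4
  filter_upwards [eventually_le_atBot (-1)] with x hx
  have hn : 1 ≤ nu x := by
    have := lm_pos x
    rw [nu_eq]
    linarith
  have hl := lm_pos x
  have hD := DN_pos x
  have hD4 := DN_ge x
  have hc := cc_pos x
  have hc1 := cc_lt_one x
  rw [abs_le] at hs
  have hn2 : nu x ≤ nu x ^ 2 := by nlinarith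
  have hn3 : nu x ^ 2 ≤ nu x ^ 3 := by nlinarith [sq_nonneg (nu x)]
  have hn4 : nu x ^ 3 ≤ nu x ^ 4 := by nlinarith [pow_pos (nu_pos x) 3]
  have hW : |nu x * (nu x ^ 2 + 2 * cc x + s * nu x)| ≤ 4 * DN (nu x) (cc x) := by
    rw [abs_le]
    constructor
    · nlinarith [pow_pos (nu_pos x) 3, pow_pos (nu_pos x) 2]
    · nlinarith [pow_pos (nu_pos x) 3, pow_pos (nu_pos x) 2]
  rw [Real.norm_eq_abs, abs_div, abs_mul, abs_of_pos hl, abs_of_pos hD, div_le_iff₀ hD]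
  nlinarith

theorem t_lt_B (x : ℝ) : t x < lm x * (nu x * (nu x ^ 2 + 2 * cc x + 1 / 20 * nu x))
    / DN (nu x) (cc x) := by
  have key : 0 < lm x * (nu x * (nu x ^ 2 + 2 * cc x + 1 / 20 * nu x)) / DN (nu x) (cc x) - t x := by
    refine H876.pos_of_deriv_pos (f := fun x => lm x * (nu x * (nu x ^ 2 + 2 * cc x + 1 / 20 * nu x))
        / DN (nu x) (cc x) - t x)
      (f' := fun x => lm x * (1 / 20 * nu x * A2 (nu x) (cc x) - A1 (nu x) (cc x))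
        / DN (nu x) (cc x) ^ 2) (c := x) ?_ ?_ ?_
    · intro y _
      refine ((hasDerivAt_B (1 / 20) y).sub (hasDerivAt_t y)).congr_deriv ?_
      ring
    · intro y _
      have h1 := lm_pos y
      have h2 := FL_pos y
      have h3 := DN_pos y
      have h4 : 0 < 1 / 20 * nu y * A2 (nu y) (cc y) - A1 (nu y) (cc y) := by
        unfold FL at h2
        linarith
      positivity
    · simpa using (tendsto_B (1 / 20) (by norm_num [abs_le])).sub tendsto_t_bot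
  linarith

theorem B_lt_t (x : ℝ) : lm x * (nu x * (nu x ^ 2 + 2 * cc x + (-1 / 20) * nu x))
    / DN (nu x) (cc x) < t x := by
  have key : 0 < t x - lm x * (nu x * (nu x ^ 2 + 2 * cc x + (-1 / 20) * nu x))
      / DN (nu x) (cc x) := by
    refine H876.pos_of_deriv_pos (f := fun x => t x - lm x * (nu x * (nu x ^ 2 + 2 * cc x
        + (-1 / 20) * nu x)) / DN (nu x) (cc x))
      (f' := fun x => lm x * (1 / 20 * nu x * A2 (nu x) (cc x) + A1 (nu x) (cc x))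
        / DN (nu x) (cc x) ^ 2) (c := x) ?_ ?_ ?_
    · intro y _
      refine ((hasDerivAt_t y).sub (hasDerivAt_B (-1 / 20) y)).congr_deriv ?_
      ring
    · intro y _
      have h1 := lm_pos y
      have h2 := FU_pos y
      have h3 := DN_pos y
      have h4 : 0 < 1 / 20 * nu y * A2 (nu y) (cc y) + A1 (nu y) (cc y) := by
        unfold FU at h2
        linarith
      positivity
    · simpa using tendsto_t_bot.sub (tendsto_B (-1 / 20) (by norm_num [abs_le]))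
  linarith

theorem nu_mul_r3 (x : ℝ) : nu x * r3 x = nu x * (nu x ^ 2 + 2 * cc x) - r x * DN (nu x) (cc x) := by
  have hb := b_eq x
  have hl := lm_mul_nu x
  have hx : x = lm x - nu x := by rw [nu_eq]; ring
  have e1 : 1 - lm x * nu x = cc x := rfl
  unfold r3 r1 DN
  rw [hb, e1]
  have e2 : nu x * (x * cc x - nu x) = (1 - cc x) * cc x - nu x ^ 2 * cc x - nu x ^ 2 := by
    rw [← hl]
    linear_combination (nu x * cc x) * hx
  linear_combination (r x) * e2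

/-- **C2**: `-nu/20 < r'''` -/
theorem r3_gt (x : ℝ) : -(nu x / 20) < r3 x := by
  have h := t_lt_B x
  have hD := DN_pos x
  have hl := lm_pos x
  have hn := nu_pos x
  rw [lt_div_iff₀ hD, ← r_mul_lm] at h
  have h1 : lm x * (r x * DN (nu x) (cc x)) < lm x * (nu x * (nu x ^ 2 + 2 * cc x + 1 / 20 * nu x)) := by
    linarith
  have h2 := lt_of_mul_lt_mul_left h1 hl.le
  have h3 := nu_mul_r3 x
  have h4 : nu x * (-(nu x / 20)) < nu x * r3 x := by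
    rw [h3]
    linarith
  exact lt_of_mul_lt_mul_left h4 hn.le

/-- **C2**: `r''' < nu/20` -/
theorem r3_lt (x : ℝ) : r3 x < nu x / 20 := by
  have h := B_lt_t x
  have hD := DN_pos x
  have hl := lm_pos x
  have hn := nu_pos x
  rw [div_lt_iff₀ hD, ← r_mul_lm] at h
  have h1 : lm x * (nu x * (nu x ^ 2 + 2 * cc x + (-1 / 20) * nu x))
      < lm x * (r x * DN (nu x) (cc x)) := by
    linarith
  have h2 := lt_of_mul_lt_mul_left h1 hl.le
  have h3 := nu_mul_r3 x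
  have h4 : nu x * r3 x < nu x * (nu x / 20) := by
    rw [h3]
    linarith
  exact lt_of_mul_lt_mul_left h4 hn.le

/-- **C2**: `|r'''| ≤ nu/20` -/
theorem abs_r3_le (x : ℝ) : |r3 x| ≤ 1 / 20 * nu x := by
  have h1 := r3_gt x
  have h2 := r3_lt x
  rw [abs_le]
  constructor <;> linarith

end Vale.Agent.P254.S3
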